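import Crest.Agent.R193.H.Form

/-!
# R193/H/Cpt: continuity of the visual metric, compact balls, separated triples
-/

set_option autoImplicit false
open Set Metric Filter Topology Complex ComplexConjugate

namespace Crest.Agent.R193.HX

open Crest.HyperbolicSpace

noncomputable def nn (ξ : OnePoint ℂ) : ℝ := normSq (vec ξ).1 + normSq (vec ξ).2
noncomputable def pa (ξ : OnePoint ℂ) : ℝ := normSq (vec ξ).2 / nn ξ
noncomputable def pb (ξ : OnePoint ℂ) : ℂ := (vec ξ).1 * conj (vec ξ).2 / nn ξ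

theorem nn_coe (z : ℂ) : nn z = ‖z‖ ^ 2 + 1 := by simp [nn, Complex.sq_norm]

theorem nn_pos (ξ : OnePoint ℂ) : 0 < nn ξ := by
  induction ξ using OnePoint.rec
  · simp [nn]
  · rw [nn_coe]; positivity

theorem tendsto_aux : Tendsto (fun z : ℂ => ‖z‖⁻¹) (coclosedCompact ℂ) (𝓝 0) := by
  rw [coclosedCompact_eq_cocompact]
  exact (tendsto_norm_cocompact_atTop (E := ℂ)).inv_tendsto_atTop

theorem ev_ne : ∀ᶠ z : ℂ in coclosedCompact ℂ, 0 < ‖z‖ := by
  rw [coclosedCompact_eq_cocompact]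
  exact (tendsto_norm_cocompact_atTop (E := ℂ)).eventually_gt_atTop 0

theorem cont_pa : Continuous pa := by
  have e : ∀ z : ℂ, pa z = 1 / (‖z‖ ^ 2 + 1) := fun z => by simp [pa, nn_coe]
  rw [OnePoint.continuous_iff]
  simp only [e]
  refine ⟨?_, continuous_const.div (by fun_prop) fun z => by positivity⟩
  rw [show pa OnePoint.infty = 0 by simp [pa]]
  refine squeeze_zero' (Eventually.of_forall fun z => by positivity) (ev_ne.mono fun z hz => ?_)
    tendsto_aux
  rw [← one_div]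
  exact one_div_le_one_div_of_le hz (by nlinarith [sq_nonneg (‖z‖ - 1)])

theorem cont_pb : Continuous pb := by
  have e : ∀ z : ℂ, pb z = z / ((‖z‖ ^ 2 + 1 : ℝ) : ℂ) := fun z => by simp [pb, nn_coe]
  rw [OnePoint.continuous_iff]
  simp only [e]
  refine ⟨?_, continuous_id.div (by fun_prop) fun z => ofReal_ne_zero.2 (by positivity)⟩
  rw [show pb OnePoint.infty = 0 by simp [pb]]
  refine squeeze_zero_norm' (ev_ne.mono fun z hz => ?_) tendsto_aux
  rw [norm_div, norm_real, Real.norm_of_nonneg (by positivity), ← one_div,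
    div_le_div_iff₀ (by positivity) hz]
  nlinarith

theorem Q_div (p : H3) (ξ : OnePoint ℂ) : Q p (vec ξ) / nn ξ =
    (1 - pa ξ - 2 * (conj (zc p) * pb ξ).re + (normSq (zc p) + tc p ^ 2) * pa ξ) / tc p := by
  have h := (nn_pos ξ).ne'
  have ht := (tc_pos p).ne'
  simp only [pa, pb, ← mul_div_assoc, div_ofReal_re, Q]
  field_simp
  simp only [nn, normSq_apply, mul_re, mul_im, sub_re, sub_im, conj_re, conj_im]
  ring

theorem chi_eq (p : H3) (ξ η : OnePoint ℂ) : chi p ξ η =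
    ((1 - pa ξ) * pa η + pa ξ * (1 - pa η) - 2 * (pb ξ * conj (pb η)).re) /
      (Q p (vec ξ) / nn ξ * (Q p (vec η) / nn η)) := by
  have h := (nn_pos ξ).ne'
  have h' := (nn_pos η).ne'
  have h1 := (Q_pos p (vec_ne ξ)).ne'
  have h2 := (Q_pos p (vec_ne η)).ne'
  simp only [chi, cv, pa, pb, map_div₀, conj_ofReal, div_mul_div_comm, ← ofReal_mul, div_ofReal_re]
  field_simp
  simp only [nn, dt, normSq_apply, mul_re, mul_im, sub_re, sub_im, conj_re, conj_im]
  ring

theorem cont_tc : Continuous tc := by unfold tc; fun_prop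

theorem cont_zc : Continuous zc := by
  have : zc = fun p : H3 => ((p.1 0 : ℝ) : ℂ) + ((p.1 1 : ℝ) : ℂ) * I := by
    ext p; simp [zc, Complex.ext_iff]
  rw [this]; fun_prop

theorem cont_chi {X : Type} [TopologicalSpace X] {p : X → H3} {ξ η : X → OnePoint ℂ}
    (hp : Continuous p) (hξ : Continuous ξ) (hη : Continuous η) :
    Continuous fun x => chi (p x) (ξ x) (η x) := by
  have h1 := cont_pa
  have h2 := cont_pb
  have h3 := cont_tc
  have h4 := cont_zc
  have h5 := continuous_normSq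
  have hQ : ∀ {ξ : X → OnePoint ℂ}, Continuous ξ →
      Continuous fun x => Q (p x) (vec (ξ x)) / nn (ξ x) := fun hξ => by
    simp only [Q_div]
    exact Continuous.div (by fun_prop) (by fun_prop) fun x => (tc_pos _).ne'
  simp only [chi_eq]
  exact Continuous.div (by fun_prop) ((hQ hξ).mul (hQ hη)) fun x =>
    (mul_pos (div_pos (Q_pos _ (vec_ne _)) (nn_pos _)) (div_pos (Q_pos _ (vec_ne _)) (nn_pos _))).ne'

theorem unif {X : Type} [TopologicalSpace X] {A : Set X} (hA : IsCompact A) {f g : X → ℝ}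
    (hf : Continuous f) (hg : Continuous g) (h : ∀ x, 0 < f x → 0 < g x) {δ : ℝ} (hδ : 0 < δ) :
    ∃ ε : ℝ, 0 < ε ∧ ∀ x ∈ A, δ ≤ f x → ε ≤ g x := by
  obtain ⟨ε, hε, h1⟩ := (hA.inter_right (isClosed_le continuous_const hf)).exists_forall_le'
    hg.continuousOn (a := 0) fun x hx => h x (hδ.trans_le hx.2)
  exact ⟨ε, hε, fun x hx h2 => h1 x ⟨hx, h2⟩⟩

theorem isCompact_ball (j : H3) (R : ℝ) : IsCompact {p : H3 | coshDist3 p j ≤ R} := by
  have hj : 0 < j.1 2 := j.2
  set c := 2 * j.1 2 * |R - 1| with hc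
  have c0 : 0 ≤ c := by positivity
  have h1 : IsCompact {x : EuclideanSpace ℝ (Fin 3) | ‖x - j.1‖ ^ 2 ≤ c * x 2} := by
    refine Metric.isCompact_of_isClosed_isBounded (isClosed_le (by fun_prop) (by fun_prop))
      ((isBounded_closedBall (x := j.1) (r := c * (j.1 2 + 1) + 1)).subset fun x hx => ?_)
    have h2 : x 2 - j.1 2 ≤ ‖x - j.1‖ := (le_abs_self _).trans (PiLp.norm_apply_le (x - j.1) 2)
    rw [mem_closedBall, dist_eq_norm]
    have h3 : ‖x - j.1‖ ^ 2 ≤ c * x 2 := hx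
    by_contra h4
    push Not at h4
    have h5 : 1 ≤ ‖x - j.1‖ := by nlinarith
    nlinarith [mul_le_mul_of_nonneg_left h2 c0, mul_le_mul_of_nonneg_left h5 (mul_pos hj hj).le,
      mul_le_mul_of_nonneg_left h5 (mul_nonneg c0 hj.le)]
  have h2 : IsCompact {p : H3 | ‖p.1 - j.1‖ ^ 2 ≤ c * p.1 2} := by
    refine (Topology.IsInducing.subtypeVal.isCompact_preimage_iff fun x hx => ?_).2 h1
    refine ⟨⟨x, show 0 < x 2 from not_le.1 fun h4 => ?_⟩, rfl⟩
    have h5 : j.1 2 - x 2 ≤ ‖x - j.1‖ := by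
      have := PiLp.norm_apply_le (x - j.1) 2
      rw [PiLp.sub_apply, Real.norm_eq_abs, abs_sub_comm] at this
      exact (le_abs_self _).trans this
    have h3 : ‖x - j.1‖ ^ 2 ≤ c * x 2 := hx
    nlinarith [mul_nonneg c0 (neg_nonneg.2 h4)]
  refine h2.of_isClosed_subset (isClosed_le ?_ continuous_const) fun p hp => ?_
  · exact continuous_const.add (Continuous.div (by fun_prop) (by fun_prop) fun p => by
      have := p.2; positivity)
  · have h0 : 0 < p.1 2 := p.2
    have h3 : ‖p.1 - j.1‖ ^ 2 / (2 * p.1 2 * j.1 2) ≤ |R - 1| := by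
      have : 1 + ‖p.1 - j.1‖ ^ 2 / (2 * p.1 2 * j.1 2) ≤ R := hp
      linarith [le_abs_self (R - 1)]
    rw [div_le_iff₀ (by positivity)] at h3
    rw [mem_ofPred_eq, hc]; linarith

theorem cv_le_one (p : H3) {u v : ℂ × ℂ} (hu : u ≠ 0) (hv : v ≠ 0) : cv p u v ≤ 1 := by
  rw [cv, div_le_one (mul_pos (Q_pos p hu) (Q_pos p hv)), lag1]
  linarith [normSq_nonneg (S p u v)]

/-- two forms comparable on two separated vectors come from points at bounded distance -/
theorem cosh_le {y j : H3} {u v : ℂ × ℂ} (hu : u ≠ 0) (hv : v ≠ 0) {ε R : ℝ} (hε : 0 < ε)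
    (h : ε ≤ cv j u v) (h1 : Q y u ≤ R * Q j u) (h2 : Q y v ≤ R * Q j v) :
    coshDist3 y j ≤ 2 * R / ε := by
  have a1 := Q_pos j hu
  have a2 := Q_pos j hv
  have a3 := Q_pos y hu
  have a4 := Q_pos y hv
  have hR : 0 < R := (mul_pos_iff_of_pos_right a1).1 (a3.trans_le h1)
  have h3 := congrArg Complex.re (lag y j u v)
  rw [← S_conj j u v, ← S_conj y u v] at h3
  simp only [S_self, sub_re, add_re, mul_re, ofReal_re, ofReal_im, conj_re, conj_im, re_ofNat,
    im_ofNat, mul_zero, sub_zero, mul_im, zero_mul, add_zero] at h3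
  have h4 := lag1 y u v
  have h5 := lag1 j u v
  have h6 := normSq_nonneg (dt u v)
  rw [normSq_apply (S _ _ _)] at h4 h5
  rw [cv, le_div_iff₀ (by positivity)] at h
  have c1 : 1 ≤ coshDist3 y j := by
    have := y.2; have := j.2; unfold coshDist3; exact le_add_of_nonneg_right (by positivity)
  have h7 : Q y u * Q y v ≤ R * Q j u * (R * Q j v) := mul_le_mul h1 h2 a4.le (by positivity)
  have h8 : -2 * R * ((S y u v).re * (S j u v).re + (S y u v).im * (S j u v).im) ≤
      R * (2 * R * (Q j u * Q j v)) := by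
    nlinarith [sq_nonneg ((S y u v).re + R * (S j u v).re),
      sq_nonneg ((S y u v).im + R * (S j u v).im), mul_nonneg (sq_nonneg R) h6]
  have h9 : -2 * ((S y u v).re * (S j u v).re + (S y u v).im * (S j u v).im) ≤
      2 * R * (Q j u * Q j v) := le_of_mul_le_mul_left (by linarith) hR
  rw [le_div_iff₀ hε]
  refine le_of_mul_le_mul_right ?_ (mul_pos a1 a2)
  nlinarith [mul_le_mul_of_nonneg_right h1 a2.le, mul_le_mul_of_nonneg_right h2 a1.le,
    mul_le_mul_of_nonneg_left h (zero_le_one.trans c1)]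

theorem Q_le {y j : H3} {u v w : ℂ × ℂ} (hu : u ≠ 0) (hv : v ≠ 0) (hw : w ≠ 0) {ε : ℝ}
    (hε : 0 < ε) (h1 : 1 / 2 ≤ cv y u v) (h2 : 1 / 2 ≤ cv y u w) (h3 : ε ≤ cv j v w) :
    Q y u ≤ (4 / ε + 1) * Q j u := by
  have a1 := Q_pos j hu
  have a2 := Q_pos j hv
  have a3 := Q_pos j hw
  have b1 := Q_pos y hu
  have b2 := Q_pos y hv
  have b3 := Q_pos y hw
  have c1 := cv_le_one j hu hv
  have c2 := cv_le_one j hu hw
  have c3 := cv_le_one y hv hw
  rw [cv, le_div_iff₀ (by positivity)] at h1 h2 h3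
  rw [cv, div_le_one (by positivity)] at c1 c2 c3
  have d1 : Q y u * Q y v * (Q y u * Q y w) ≤ 2 * (Q j u * Q j v) * (2 * (Q j u * Q j w)) :=
    mul_le_mul (by linarith) (by linarith) (by positivity) (by positivity)
  have d2 : Q y u ^ 2 * (ε * (Q j v * Q j w)) ≤ Q y u ^ 2 * (Q y v * Q y w) :=
    mul_le_mul_of_nonneg_left (h3.trans c3) (sq_nonneg _)
  have d3 : Q y u ^ 2 * ε ≤ 4 * Q j u ^ 2 :=
    le_of_mul_le_mul_right (by nlinarith) (mul_pos a2 a3)
  have d4 : Q y u ^ 2 ≤ 4 / ε * Q j u ^ 2 := by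
    rw [div_mul_eq_mul_div, le_div_iff₀ hε]; exact d3
  have d5 : 0 < 4 / ε := by positivity
  refine (pow_le_pow_iff_left₀ b1.le (by positivity) two_ne_zero).1 (d4.trans ?_)
  rw [mul_pow]
  exact mul_le_mul_of_nonneg_right (by nlinarith) (sq_nonneg _)

theorem chi_comm (p : H3) (ξ η : OnePoint ℂ) : chi p ξ η = chi p η ξ := by
  rw [chi, chi, cv, cv, mul_comm, ← normSq_neg]
  congr 2
  simp [dt, mul_comm]

/-- every point sees some triple well separated -/
theorem exists_triple (x : H3) : ∃ a b c : OnePoint ℂ,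
    1 / 2 ≤ chi x a b ∧ 1 / 2 ≤ chi x a c ∧ 1 / 2 ≤ chi x b c := by
  have ht := tc_pos x
  refine ⟨OnePoint.infty, zc x, (zc x + tc x : ℂ), ?_, ?_, ?_⟩
  · rw [chi_infty, sub_self, map_zero, zero_add, div_self (by positivity)]; norm_num
  · rw [chi_infty, add_sub_cancel_left, normSq_ofReal, le_div_iff₀ (by positivity)]; nlinarith
  · simp only [chi, cv, vec_coe, dt, Q, mul_one, one_mul, sub_self, map_zero, map_one, zero_add,
      add_sub_cancel_left, sub_add_cancel_left, normSq_neg, normSq_ofReal]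
    apply le_of_eq; field_simp; ring

theorem cosh_le_of_triple {y j : H3} {a b c : OnePoint ℂ} {ε : ℝ} (hε : 0 < ε)
    (h1 : 1 / 2 ≤ chi y a b) (h2 : 1 / 2 ≤ chi y a c) (h3 : 1 / 2 ≤ chi y b c)
    (k1 : ε ≤ chi j a b) (k2 : ε ≤ chi j a c) (k3 : ε ≤ chi j b c) :
    coshDist3 y j ≤ 2 * (4 / ε + 1) / ε :=
  cosh_le (vec_ne a) (vec_ne b) hε k1 (Q_le (vec_ne a) (vec_ne b) (vec_ne c) hε h1 h2 k3)
    (Q_le (vec_ne b) (vec_ne a) (vec_ne c) hε (h1.trans_eq (chi_comm y a b)) h3 k2)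

end Crest.Agent.R193.HX
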