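import Crest.Agent.R193.Defs
import Crest.Prelude.Def_HyperbolicThreeSpace

/-!
# R193/H/Form: points of `H³` as Hermitian forms on `ℂ²`, visual metrics, Poincaré extension
-/

set_option autoImplicit false
open Set Metric Filter Topology Complex ComplexConjugate

namespace Crest.Agent.R193.HX

open Crest.HyperbolicSpace

abbrev H3 := UpperHalfSpace3

def zc (p : H3) : ℂ := ⟨p.1 0, p.1 1⟩
def tc (p : H3) : ℝ := p.1 2
noncomputable def mkH (z : ℂ) (t : ℝ) (ht : 0 < t) : H3 := ⟨!₂[z.re, z.im, t], by simpa using ht⟩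

theorem tc_pos (p : H3) : 0 < tc p := p.2
@[simp] theorem zc_mk (z : ℂ) (t : ℝ) (ht : 0 < t) : zc (mkH z t ht) = z := by
  simp [zc, mkH]
@[simp] theorem tc_mk (z : ℂ) (t : ℝ) (ht : 0 < t) : tc (mkH z t ht) = t := by
  simp [tc, mkH]

theorem ext_zt {p q : H3} (h1 : zc p = zc q) (h2 : tc p = tc q) : p = q := by
  apply Subtype.ext
  ext i
  fin_cases i
  · exact congrArg Complex.re h1
  · exact congrArg Complex.im h1
  · exact h2

theorem cosh_eq (p q : H3) : coshDist3 p q =
    (normSq (zc p - zc q) + tc p ^ 2 + tc q ^ 2) / (2 * tc p * tc q) := by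
  have h1 := (tc_pos p).ne'
  have h2 := (tc_pos q).ne'
  unfold coshDist3
  rw [EuclideanSpace.norm_sq_eq, Fin.sum_univ_three]
  simp only [tc, zc, normSq_apply, PiLp.sub_apply, Real.norm_eq_abs, sq_abs, sub_re, sub_im] at *
  field_simp
  ring

/-- determinant -/
def dt (u v : ℂ × ℂ) : ℂ := u.1 * v.2 - u.2 * v.1

/-- the Hermitian form of a point -/
noncomputable def S (p : H3) (u v : ℂ × ℂ) : ℂ :=
  ((u.1 - zc p * u.2) * conj (v.1 - zc p * v.2) + (tc p : ℂ) ^ 2 * (u.2 * conj v.2)) / tc p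

noncomputable def Q (p : H3) (u : ℂ × ℂ) : ℝ :=
  (normSq (u.1 - zc p * u.2) + tc p ^ 2 * normSq u.2) / tc p

theorem S_self (p : H3) (u : ℂ × ℂ) : S p u u = Q p u := by
  simp only [S, Q, mul_conj]; push_cast; rfl

theorem S_conj (p : H3) (u v : ℂ × ℂ) : conj (S p u v) = S p v u := by
  simp only [S, map_div₀, map_add, map_mul, map_pow, conj_conj, conj_ofReal]; ring

theorem Q_pos (p : H3) {u : ℂ × ℂ} (hu : u ≠ 0) : 0 < Q p u := by
  have ht := tc_pos p
  refine div_pos ?_ ht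
  by_cases h : u.2 = 0
  · have : u.1 ≠ 0 := fun h1 => hu (Prod.ext h1 h)
    simpa [h] using this
  · exact add_pos_of_nonneg_of_pos (normSq_nonneg _) (mul_pos (by positivity) (normSq_pos.2 h))

/-- the Lagrange identity for two points -/
theorem lag (p q : H3) (u v : ℂ × ℂ) :
    S p u u * S q v v + S q u u * S p v v - S p u v * S q v u - S q u v * S p v u =
      2 * (coshDist3 p q : ℂ) * (normSq (dt u v) : ℝ) := by
  have h1 : (tc p : ℂ) ≠ 0 := ofReal_ne_zero.2 (tc_pos p).ne'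
  have h2 : (tc q : ℂ) ≠ 0 := ofReal_ne_zero.2 (tc_pos q).ne'
  rw [cosh_eq]
  push_cast
  simp only [← mul_conj, S, dt, map_sub, map_mul]
  field_simp
  ring

theorem cosh_self (p : H3) : coshDist3 p p = 1 := by simp [coshDist3]

theorem lag1 (p : H3) (u v : ℂ × ℂ) : Q p u * Q p v = normSq (S p u v) + normSq (dt u v) := by
  have h := lag p p u v
  rw [cosh_self, ← S_conj p u v, mul_conj, S_self, S_self] at h
  have : ((Q p u * Q p v : ℝ) : ℂ) = (normSq (S p u v) + normSq (dt u v) : ℝ) := by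
    push_cast at h ⊢; linear_combination h / 2
  exact_mod_cast this

theorem S_expand (p : H3) (a b : ℂ × ℂ) (u v : ℂ × ℂ) :
    S p (u.1 • a + u.2 • b) (v.1 • a + v.2 • b) = u.1 * conj v.1 * S p a a +
      u.1 * conj v.2 * S p a b + u.2 * conj v.1 * S p b a + u.2 * conj v.2 * S p b b := by
  simp only [S, Prod.fst_add, Prod.snd_add, Prod.smul_fst, Prod.smul_snd, smul_eq_mul, map_sub,
    map_mul, map_add]
  ring

/-- pulling a form back by a matrix of determinant one -/
theorem exists_pull (p : H3) {a b : ℂ × ℂ} (h : dt a b = 1) :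
    ∃ q : H3, ∀ u v : ℂ × ℂ, S q u v = S p (u.1 • a + u.2 • b) (v.1 • a + v.2 • b) := by
  have ha : a ≠ 0 := by rintro rfl; simp [dt] at h
  have hA := Q_pos p ha
  have hA' : (Q p a : ℂ) ≠ 0 := ofReal_ne_zero.2 hA.ne'
  have h1 : (Q p a : ℂ) * Q p b = S p a b * S p b a + 1 := by
    have := lag1 p a b
    rw [h, map_one] at this
    rw [← S_conj p a b, mul_conj]; exact_mod_cast this
  refine ⟨mkH (-S p b a / Q p a) (Q p a)⁻¹ (inv_pos.2 hA), fun u v => ?_⟩
  rw [S_expand, S_self, S_self, S]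
  simp only [zc_mk, tc_mk, map_sub, map_mul, map_div₀, map_neg, S_conj, conj_ofReal]
  push_cast
  field_simp
  linear_combination (-u.2 * conj v.2) * h1

/-- the squared visual (chordal) distance seen from `p` -/
noncomputable def cv (p : H3) (u v : ℂ × ℂ) : ℝ := normSq (dt u v) / (Q p u * Q p v)

noncomputable def chi (p : H3) (ξ η : OnePoint ℂ) : ℝ := cv p (vec ξ) (vec η)

theorem cv_smul (p : H3) (u v : ℂ × ℂ) {s t : ℂ} (hs : s ≠ 0) (ht : t ≠ 0) :
    cv p (s • u) (t • v) = cv p u v := by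
  have hQ : ∀ (s : ℂ) (u : ℂ × ℂ), Q p (s • u) = normSq s * Q p u := fun s u => by
    simp only [Q, Prod.smul_fst, Prod.smul_snd, smul_eq_mul]
    rw [show s * u.1 - zc p * (s * u.2) = s * (u.1 - zc p * u.2) by ring, map_mul, map_mul]
    ring
  have hd : dt (s • u) (t • v) = s * t * dt u v := by
    simp only [dt, Prod.smul_fst, Prod.smul_snd, smul_eq_mul]; ring
  have h1 := (normSq_pos.2 hs).ne'
  have h2 := (normSq_pos.2 ht).ne'
  simp only [cv, hQ, hd, map_mul]
  rw [show normSq s * Q p u * (normSq t * Q p v) = normSq s * normSq t * (Q p u * Q p v) by ring,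
    mul_div_mul_left _ _ (mul_ne_zero h1 h2)]

theorem ext_of (f : OnePoint ℂ → OnePoint ℂ) (σ : ℂ →+* ℂ) (hσ : ∀ r : ℝ, σ r = r)
    (hn : ∀ z, normSq (σ z) = normSq z) (L : ℂ × ℂ → ℂ × ℂ)
    (hd : ∀ u v, dt (L u) (L v) = σ (dt u v))
    (hS : ∀ p, ∃ q, ∀ u v, S q (L u) (L v) = σ (S p u v))
    (hf : ∀ ξ, ∃ t : ℂ, t ≠ 0 ∧ vec (f ξ) = t • L (vec ξ)) :
    ∃ F : H3 → H3, (∀ p ξ η, chi (F p) (f ξ) (f η) = chi p ξ η) ∧
      ∀ p q, coshDist3 (F p) (F q) = coshDist3 p q := by
  choose F hF using hS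
  have hQ : ∀ p u, Q (F p) (L u) = Q p u := fun p u => by
    have := hF p u u
    rw [S_self, S_self, hσ] at this
    exact_mod_cast this
  refine ⟨F, fun p ξ η => ?_, fun p q => ?_⟩
  · obtain ⟨s, hs, e1⟩ := hf ξ
    obtain ⟨t, ht, e2⟩ := hf η
    rw [chi, e1, e2, cv_smul _ _ _ hs ht, cv, hQ, hQ, hd, hn]; rfl
  · have h1 := lag (F p) (F q) (L (1, 0)) (L (0, 1))
    have h2 := congrArg σ (lag p q (1, 0) (0, 1))
    simp only [hF, hd, hn] at h1
    simp only [map_sub, map_add, map_mul, hσ, map_ofNat] at h2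
    rw [h1] at h2
    simp only [dt, mul_one, mul_zero, sub_zero, map_one, ofReal_one] at h2
    exact_mod_cast mul_left_cancel₀ two_ne_zero h2

theorem push (a b c d : ℂ) (h : a * d - b * c = 1) (p : H3) : ∃ q : H3, ∀ u v : ℂ × ℂ,
    S q (a * u.1 + b * u.2, c * u.1 + d * u.2) (a * v.1 + b * v.2, c * v.1 + d * v.2) =
      S p u v := by
  obtain ⟨q, hq⟩ := exists_pull p (a := (d, -c)) (b := (-b, a)) (by simp only [dt]; linear_combination h)
  have e : ∀ u : ℂ × ℂ, (a * u.1 + b * u.2) • ((d, -c) : ℂ × ℂ) +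
      (c * u.1 + d * u.2) • ((-b, a) : ℂ × ℂ) = u := fun u => by
    ext
    · simp only [Prod.fst_add, Prod.smul_fst, smul_eq_mul]; linear_combination u.1 * h
    · simp only [Prod.snd_add, Prod.smul_snd, smul_eq_mul]; linear_combination u.2 * h
  exact ⟨q, fun u v => by rw [hq, e, e]⟩

/-- Poincaré extension -/
theorem exists_ext {f : OnePoint ℂ → OnePoint ℂ} (hf : IsMob f) :
    ∃ F : H3 → H3, (∀ p ξ η, chi (F p) (f ξ) (f η) = chi p ξ η) ∧
      ∀ p q, coshDist3 (F p) (F q) = coshDist3 p q := by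
  obtain ⟨a, b, c, d, h, hf | hf⟩ := hf
  · refine ext_of f (RingHom.id ℂ) (fun _ => rfl) (fun _ => rfl)
      (fun u => (a * u.1 + b * u.2, c * u.1 + d * u.2)) (fun u v => ?_) (push a b c d h) hf
    simp only [dt, RingHom.id_apply]
    linear_combination (u.1 * v.2 - u.2 * v.1) * h
  · refine ext_of f (starRingEnd ℂ) conj_ofReal normSq_conj
      (fun u => (a * conj u.1 + b * conj u.2, c * conj u.1 + d * conj u.2)) (fun u v => ?_)
      (fun p => ?_) hf
    · simp only [dt, map_sub, map_mul]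
      linear_combination (conj u.1 * conj v.2 - conj u.2 * conj v.1) * h
    · obtain ⟨q, hq⟩ := push a b c d h (mkH (conj (zc p)) (tc p) (tc_pos p))
      refine ⟨q, fun u v => (hq (conj u.1, conj u.2) (conj v.1, conj v.2)).trans ?_⟩
      simp [S]

theorem chi_infty (p : H3) (w : ℂ) :
    chi p OnePoint.infty w = tc p ^ 2 / (normSq (w - zc p) + tc p ^ 2) := by
  have ht := tc_pos p
  have : 0 < normSq (w - zc p) + tc p ^ 2 := add_pos_of_nonneg_of_pos (normSq_nonneg _) (by positivity)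
  simp only [chi, cv, vec_coe, vec_infty, dt, Q, mul_one, mul_zero, zero_mul, sub_zero, map_one,
    map_zero, add_zero]
  field_simp

/-- the visual metric determines the point -/
theorem chi_inj {p q : H3} (h : ∀ ξ η, chi p ξ η = chi q ξ η) : p = q := by
  have hp := tc_pos p
  have hq := tc_pos q
  have h1 := h OnePoint.infty (zc p)
  have h2 := h OnePoint.infty (zc p + 1 : ℂ)
  rw [chi_infty, chi_infty] at h1 h2
  have h3 : 0 < normSq (zc p - zc q) + tc q ^ 2 :=
    add_pos_of_nonneg_of_pos (normSq_nonneg _) (by positivity)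
  have e : zc p = zc q := by
    rw [sub_self, map_zero, zero_add, div_self (by positivity), eq_div_iff h3.ne'] at h1
    exact sub_eq_zero.1 (normSq_eq_zero.1 (by linarith))
  refine ext_zt e ?_
  rw [← e, add_sub_cancel_left, map_one, div_eq_div_iff (by positivity) (by positivity)] at h2
  exact (pow_left_inj₀ hp.le hq.le two_ne_zero).1 (by linarith)

theorem vec_ne (ξ : OnePoint ℂ) : vec ξ ≠ 0 := by
  induction ξ using OnePoint.rec <;> simp

theorem chi_pos_iff (p : H3) (ξ η : OnePoint ℂ) : 0 < chi p ξ η ↔ ξ ≠ η := by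
  rw [chi, cv, div_pos_iff_of_pos_right (mul_pos (Q_pos p (vec_ne ξ)) (Q_pos p (vec_ne η))),
    normSq_pos]
  induction ξ using OnePoint.rec <;> induction η using OnePoint.rec <;> simp [dt, sub_eq_zero]

end Crest.Agent.R193.HX
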