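import Crest.Agent.R193.B.Grp
import Crest.Agent.R193.H.Cpt

/-!
# R193/H/Main: Poincare extension.  Blueprint: notes193/R193.md.  The statements below are FROZEN; the block owner fills them.
-/

set_option autoImplicit false
open Set Metric Filter Topology MeasureTheory

namespace Crest.Agent.R193

open Crest.HyperbolicSpace HX

variable {G : Type} [Group G] {Z : Type} [MetricSpace Z] [CompactSpace Z] [MulAction G Z]

theorem exists_action (H : HA G Z) (Φ : Z ≃ₜ OnePoint ℂ)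
    (h : ∀ g : G, IsMob (fun p => Φ (g • Φ.symm p))) :
    ∃ ρ : G →* isometryGroup3,
      (∀ K : Set UpperHalfSpace3, IsCompact K →
        Set.Finite {g : G | ∃ x ∈ K, (ρ g : Equiv.Perm UpperHalfSpace3) x ∈ K}) ∧
      (∃ K : Set UpperHalfSpace3, IsCompact K ∧
        ∀ x : UpperHalfSpace3, ∃ g : G, (ρ g : Equiv.Perm UpperHalfSpace3) x ∈ K) ∧
      Finite ρ.ker := by
  choose F hF hI using fun g => exists_ext (h g)
  have hR : ∀ g p y z, chi (F g p) (Φ (g • y)) (Φ (g • z)) = chi p (Φ y) (Φ z) := fun g p y z => by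
    simpa using hF g p (Φ y) (Φ z)
  have hU : ∀ (g : G) p q, (∀ y z, chi p (Φ (g • y)) (Φ (g • z)) = chi q (Φ (g • y)) (Φ (g • z))) →
      p = q := fun g p q h => chi_inj fun ξ η => by
    simpa using h (g⁻¹ • Φ.symm ξ) (g⁻¹ • Φ.symm η)
  let A : MulAction G H3 :=
    { smul := F
      one_smul := fun p => hU 1 _ _ fun y z => (hR 1 p y z).trans (by simp)
      mul_smul := fun g g' p => hU (g * g') _ _ fun y z => (hR (g * g') p y z).trans (by
        rw [mul_smul, mul_smul]; exact ((hR g _ _ _).trans (hR g' p y z)).symm) }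
  let ρ : G →* isometryGroup3 := (MulAction.toPermHom G H3).codRestrict _ fun g => hI g
  have hρ : ∀ g x, (ρ g : Equiv.Perm UpperHalfSpace3) x = F g x := fun _ _ => rfl
  have cd : Continuous fun x : H3 × Z × Z => dist x.2.1 x.2.2 := by fun_prop
  have cc : Continuous fun x : H3 × Z × Z => chi x.1 (Φ x.2.1) (Φ x.2.2) :=
    cont_chi (by fun_prop) (by fun_prop) (by fun_prop)
  have hp : ∀ x : H3 × Z × Z, 0 < chi x.1 (Φ x.2.1) (Φ x.2.2) ↔ 0 < dist x.2.1 x.2.2 := fun x => by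
    rw [chi_pos_iff, dist_pos, Φ.injective.ne_iff]
  have prop : ∀ K : Set UpperHalfSpace3, IsCompact K →
      Set.Finite {g : G | ∃ x ∈ K, (ρ g : Equiv.Perm UpperHalfSpace3) x ∈ K} := fun K hK => by
    obtain ⟨δ, hδ, hfin⟩ := H.finite_of_low
    have hA : IsCompact (K ×ˢ (univ : Set (Z × Z))) := hK.prod isCompact_univ
    obtain ⟨ε₁, h1, k1⟩ := unif hA cd cc (fun x => (hp x).2) hδ
    obtain ⟨ε, h2, k2⟩ := unif hA cc cd (fun x => (hp x).1) h1
    refine (hfin ε h2).subset ?_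
    rintro g ⟨x, hx, hx'⟩ y z hyz
    exact k2 (F g x, g • y, g • z) ⟨hx', trivial⟩
      ((k1 (x, y, z) ⟨hx, trivial⟩ hyz).trans_eq (hR g x y z).symm)
  let j : H3 := mkH 0 1 one_pos
  refine ⟨ρ, prop, ?_, ?_⟩
  · obtain ⟨δ, hδ, htr⟩ := H.triples
    obtain ⟨ε, h1, k1⟩ := unif ((isCompact_singleton (x := j)).prod (isCompact_univ (X := Z × Z)))
      cd cc (fun x => (hp x).2) hδ
    refine ⟨_, isCompact_ball j (2 * (4 / ε + 1) / ε), fun x => ?_⟩
    obtain ⟨a, b, c, h1', h2, h3⟩ := exists_triple x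
    obtain ⟨a, rfl⟩ := Φ.surjective a
    obtain ⟨b, rfl⟩ := Φ.surjective b
    obtain ⟨c, rfl⟩ := Φ.surjective c
    have ne : ∀ a b : Z, 1 / 2 ≤ chi x (Φ a) (Φ b) → a ≠ b := fun a b h =>
      dist_pos.1 ((hp (x, a, b)).1 (lt_of_lt_of_le (by norm_num) h))
    obtain ⟨g, g1, g2, g3⟩ := htr a b c (ne _ _ h1') (ne _ _ h3) (ne _ _ h2)
    exact ⟨g, cosh_le_of_triple h1 (h1'.trans_eq (hR g x a b).symm) (h2.trans_eq (hR g x a c).symm)
      (h3.trans_eq (hR g x b c).symm) (k1 (j, _, _) ⟨rfl, trivial⟩ g1)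
      (k1 (j, _, _) ⟨rfl, trivial⟩ g3) (k1 (j, _, _) ⟨rfl, trivial⟩ g2)⟩
  · refine ((prop {j} isCompact_singleton).subset (t := ρ.ker) fun g hg => ⟨j, rfl, ?_⟩).to_subtype
    rw [MonoidHom.mem_ker.1 hg]; rfl

end Crest.Agent.R193
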